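import Vale.Agent.Lib.P125.Final

open Finset Matrix Vale.Agent.Lib.P125

/-- For every finite stationary reversible Markov chain `(S, π, P)`, every `N`, and every map
`f : S → ℝ^N` which moves by at most one in the `ℓ¹` norm along each edge of the chain, the
summing operator applied to the displacement `f(Z_t) - f(Z_0)` has third moment at most
`84386 t^(8/3)` and `9/8`-moment at most `71 t`, uniformly in `N` and the chain. -/
theorem Vale.Agent.Results.P125.A_main.result
    {S : Type} [Fintype S] [DecidableEq S] (π : S → ℝ) (P : Matrix S S ℝ)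
    (hπ : ∀ x, 0 ≤ π x) (hπ1 : ∑ x, π x = 1)
    (hP : ∀ x y, 0 ≤ P x y) (hP1 : ∀ x, ∑ y, P x y = 1)
    (hrev : ∀ x y, π x * P x y = π y * P y x)
    (N : ℕ) (f : S → ℕ → ℝ)
    (hf : ∀ x y, P x y ≠ 0 → ∑ i ∈ range N, |f y i - f x i| ≤ 1) (t : ℕ) :
    ∑ x, ∑ y, π x * (P ^ t) x y * (summingNorm N (fun i => f y i - f x i)) ^ 3
        ≤ 84386 * (t : ℝ) ^ (8 / 3 : ℝ) ∧
    ∑ x, ∑ y, π x * (P ^ t) x y * (summingNorm N (fun i => f y i - f x i)) ^ (9 / 8 : ℝ)
        ≤ 71 * t :=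
  main_bounds π P hπ hπ1 hP hP1 hrev N f hf t
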