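import Vale.Agent.Lib.P125B.Cor

open Finset Matrix Vale.Agent.Lib.P125 Vale.Agent.Lib.P125B

/-- The explicit norm `xNorm` on finitely supported sequences is a norm, consistent in `N`, through
which all the summing operators factor with constants `2` and `2`; and for every finite stationary
reversible Markov chain and every map `F` into `(ℝ^N, xNorm N)` moving at most one along each edge,
the conditional mean `E[F(Z_s) | Z_0 = z]` is at mean distance at most `6420 s^(3/4)` from `F z`.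
If in addition the chain has mixed at time `s` to precision `1 / D`, where `D` bounds all distances
between the points `F z`, then the mean distance of two independent stationary points is at most
`2 (6420 s^(3/4) + 1)`. -/
theorem Vale.Agent.Results.P125.B_mean.result
    {S : Type} [Fintype S] [DecidableEq S] (π : S → ℝ) (P : Matrix S S ℝ)
    (hπ : ∀ x, 0 ≤ π x) (hπ1 : ∑ x, π x = 1)
    (hP : ∀ x y, 0 ≤ P x y) (hP1 : ∀ x, ∑ y, P x y = 1)
    (hrev : ∀ x y, π x * P x y = π y * P y x) :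
    (∀ (N : ℕ) (g g' : ℕ → ℝ), xNorm N (fun i => g i + g' i) ≤ xNorm N g + xNorm N g') ∧
    (∀ (N : ℕ) (g : ℕ → ℝ) (c : ℝ), xNorm N (fun i => c * g i) = |c| * xNorm N g) ∧
    (∀ (N : ℕ) (g : ℕ → ℝ), xNorm N g = 0 → ∀ i < N, g i = 0) ∧
    (∀ (N : ℕ) (g : ℕ → ℝ), g N = 0 → xNorm (N + 1) g = xNorm N g) ∧
    (∀ (N k : ℕ) (g : ℕ → ℝ), k ≤ N → |∑ i ∈ range k, g i| ≤ 2 * xNorm N g) ∧
    (∀ (N : ℕ) (g : ℕ → ℝ), xNorm N g ≤ 2 * ∑ i ∈ range N, |g i|) ∧
    (∀ (N : ℕ) (F : S → ℕ → ℝ), (∀ x y, P x y ≠ 0 → xNorm N (fun i => F y i - F x i) ≤ 1) →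
      ∀ s : ℕ, 1 ≤ s →
        ∑ z, π z * xNorm N (fun i => ∑ y, (P ^ s) z y * F y i - F z i)
            ≤ 6420 * (s : ℝ) ^ (3 / 4 : ℝ) ∧
        ∀ D : ℝ, 0 < D → (∀ z z', xNorm N (fun i => F z i - F z' i) ≤ D) →
          (∀ z, ∑ y, |(P ^ s) z y - π y| ≤ 1 / D) →
          ∑ z, ∑ z', π z * π z' * xNorm N (fun i => F z i - F z' i)
            ≤ 2 * (6420 * (s : ℝ) ^ (3 / 4 : ℝ) + 1)) := by
  let C : Chain S := ⟨π, P, hπ, hP, hP1, hπ1, hrev⟩
  refine ⟨xNorm_add_le, xNorm_smul, eq_zero_of_xNorm, xNorm_succ_of_zero,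
    fun N k g hk => prefix_le_xNorm hk g, xNorm_le_l1, ?_⟩
  intro N F hF s hs
  refine ⟨mean_bound C N F hF s hs, ?_⟩
  intro D hD hdiam hmix
  exact mean_distance_bound C N F hF s hs hD hdiam hmix
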