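import Vale.Agent.Lib.P125.Mt.Main

open Finset Matrix

/-- There is a real Banach space `X` that is not superreflexive (no equivalent norm is uniformly
convex) such that for every finite stationary reversible Markov chain `(π, P)`, every `f : S → X`
and every `t`, the conditional mean displacement satisfies
`E ‖E[f(Z_t) | Z_0] - f(Z_0)‖^(3/2) ≤ 500000 t (1 + log t)^(3/2) E ‖f(Z_1) - f(Z_0)‖^(3/2)`. -/
theorem Vale.Agent.Results.P125.C_mean32.result :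
    ∃ (X : Type) (_ : NormedAddCommGroup X) (_ : NormedSpace ℝ X) (_ : CompleteSpace X),
      (¬ ∃ (p : X → ℝ) (a b : ℝ), 0 < a ∧ 0 < b ∧ (∀ x y, p (x + y) ≤ p x + p y) ∧
        (∀ (r : ℝ) x, p (r • x) = |r| * p x) ∧ (∀ x, a * ‖x‖ ≤ p x ∧ p x ≤ b * ‖x‖) ∧
        ∀ ε : ℝ, 0 < ε → ε ≤ 2 → ∃ δ : ℝ, 0 < δ ∧ ∀ x y, p x ≤ 1 → p y ≤ 1 → ε ≤ p (x - y) →
          p ((1 / 2 : ℝ) • (x + y)) ≤ 1 - δ) ∧
      ∀ (S : Type) [Fintype S] [DecidableEq S] (π : S → ℝ) (P : Matrix S S ℝ),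
        (∀ x, 0 ≤ π x) → (∑ x, π x = 1) → (∀ x y, 0 ≤ P x y) → (∀ x, ∑ y, P x y = 1) →
        (∀ x y, π x * P x y = π y * P y x) → ∀ (f : S → X) (t : ℕ),
        ∑ x, π x * ‖∑ y, (P ^ t) x y • f y - f x‖ ^ (3 / 2 : ℝ)
          ≤ 500000 * t * (1 + Real.log t) ^ (3 / 2 : ℝ) *
            ∑ x, ∑ y, π x * P x y * ‖f y - f x‖ ^ (3 / 2 : ℝ) :=
  ⟨Vale.Agent.Lib.P125.Mt.Xx, inferInstance, inferInstance, inferInstance,
    Vale.Agent.Lib.P125.Mt.not_uniformly_convex,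
    fun _ _ _ π P hπ hπ1 hP hP1 hrev f t =>
      Vale.Agent.Lib.P125.Mt.main_mean π P hπ hπ1 hP hP1 hrev f t⟩
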